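import Vale.Agent.Lib.P166.Univ

open MeasureTheory Filter Topology Vale.Agent.Lib.P166

namespace Vale.Agent.Results.P166.A_universal

/-- For every `β ≥ 0` the expected pressure of the orthogonally invariant Ising model is, at every
finite `N`, a symmetric convex nondecreasing function of the eigenvalue vector which is affine along
constant shifts. Hence two eigenvalue sequences with the same weak limit `μ`, the same top edge `M`
(the maximum of the support of `μ`) and uniformly bounded below have asymptotically equal expected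
pressures: the limit, whenever it exists, depends only on `β` and `μ`. -/
theorem result (β : ℝ) (hβ : 0 ≤ β) :
    (∀ (N : ℕ) (π : Equiv.Perm (Fin N)) (lam : Fin N → ℝ),
        meanPressure β (lam ∘ π) = meanPressure β lam) ∧
    (∀ N : ℕ, ConvexOn ℝ Set.univ (fun lam : Fin N → ℝ => meanPressure β lam)) ∧
    (∀ (N : ℕ) (lam lam' : Fin N → ℝ), (∀ i, lam i ≤ lam' i) →
        meanPressure β lam ≤ meanPressure β lam') ∧
    (∀ (N : ℕ) (_ : 1 ≤ N) (lam : Fin N → ℝ) (c : ℝ),
        meanPressure β (fun i => lam i + c) = meanPressure β lam + β * c / 2) ∧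
    (∀ (μ : Measure ℝ) [IsProbabilityMeasure μ] (M : ℝ),
      (∀ ε > 0, 0 < μ (Set.Ioi (M - ε))) →
      ∀ a b : ∀ N : ℕ, Fin N → ℝ,
      (∀ f : BoundedContinuousFunction ℝ ℝ,
        Tendsto (fun N : ℕ => (N : ℝ)⁻¹ * ∑ i, f (a N i)) atTop (𝓝 (∫ x, f x ∂μ))) →
      (∀ f : BoundedContinuousFunction ℝ ℝ,
        Tendsto (fun N : ℕ => (N : ℝ)⁻¹ * ∑ i, f (b N i)) atTop (𝓝 (∫ x, f x ∂μ))) →
      (∀ ε > 0, ∀ᶠ N in atTop, ∀ i, a N i ≤ M + ε) →
      (∀ ε > 0, ∀ᶠ N in atTop, ∀ i, b N i ≤ M + ε) →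
      (∃ C : ℝ, ∀ᶠ N in atTop, ∀ i, -C ≤ a N i) →
      (∃ C : ℝ, ∀ᶠ N in atTop, ∀ i, -C ≤ b N i) →
      Tendsto (fun N : ℕ => meanPressure β (a N) - meanPressure β (b N)) atTop (𝓝 0)) :=
  ⟨fun _ π lam => meanPressure_perm β π lam,
   fun _ => meanPressure_convex β,
   fun _ _ _ h => meanPressure_mono hβ h,
   fun _ hN lam c => meanPressure_shift hN β lam c,
   fun μ _ M hM a b ha hb hau hbu hal hbl =>
     universality hβ μ M hM a b ha hb hau hbu hal hbl⟩

end Vale.Agent.Results.P166.A_universal
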